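import Mathlib
import Crest.Prelude.Def_TruncExpWeight

set_option autoImplicit false

open MeasureTheory Set Real Filter Topology

namespace Crest.Agent.Lib.TruncExp

/-- Indicator of `t < p`. -/
noncomputable def ind (p t : ℝ) : ℝ := if t < p then 1 else 0

/-- The density of a Gamma(2) variable. -/
noncomputable def w (t : ℝ) : ℝ := if 0 < t then t * Real.exp (-t) else 0

/-- A capped exponential. -/
noncomputable def Lfun (s τ t : ℝ) : ℝ := min 1 (Real.exp (-s * (t - τ)))

lemma measurable_ind (p : ℝ) : Measurable (ind p) := by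
  unfold ind
  exact Measurable.ite measurableSet_Iio measurable_const measurable_const

lemma measurable_w : Measurable w := by
  unfold w
  exact Measurable.ite measurableSet_Ioi (by fun_prop) measurable_const

lemma measurable_Lfun (s τ : ℝ) : Measurable (Lfun s τ) := by
  unfold Lfun
  exact measurable_const.min (by fun_prop)

lemma ind_nonneg (p t : ℝ) : 0 ≤ ind p t := by
  unfold ind; split_ifs <;> norm_num

lemma ind_le_one (p t : ℝ) : ind p t ≤ 1 := by
  unfold ind; split_ifs <;> norm_num

lemma w_nonneg (t : ℝ) : 0 ≤ w t := by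
  unfold w; split_ifs with h
  · positivity
  · exact le_rfl

lemma w_le_one (t : ℝ) : w t ≤ 1 := by
  unfold w; split_ifs with h
  · have h1 : t + 1 ≤ Real.exp t := Real.add_one_le_exp t
    have h2 : 0 < Real.exp t := Real.exp_pos t
    rw [Real.exp_neg, ← div_eq_mul_inv, div_le_one h2]
    linarith
  · norm_num

lemma Lfun_pos (s τ t : ℝ) : 0 < Lfun s τ t := by
  unfold Lfun; exact lt_min one_pos (Real.exp_pos _)

lemma Lfun_le_one (s τ t : ℝ) : Lfun s τ t ≤ 1 := by
  unfold Lfun; exact min_le_left _ _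

lemma Lfun_mono {s τ τ' : ℝ} (hs : 0 ≤ s) (h : τ ≤ τ') (t : ℝ) : Lfun s τ t ≤ Lfun s τ' t := by
  unfold Lfun
  apply min_le_min le_rfl
  apply Real.exp_le_exp.2
  nlinarith

lemma abs_Lfun_le (s τ t : ℝ) : |Lfun s τ t| ≤ 1 := by
  rw [abs_of_pos (Lfun_pos s τ t)]; exact Lfun_le_one s τ t

/-- Antiderivative computation. -/
lemma mul_exp_Ioi {σ p : ℝ} (hσ : 0 < σ) (hp : 0 ≤ p) :
    IntegrableOn (fun t => t * Real.exp (-(σ * t))) (Ioi p) ∧
    ∫ t in Ioi p, t * Real.exp (-(σ * t)) = Real.exp (-(σ * p)) * (p / σ + 1 / σ ^ 2) := by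
  set F : ℝ → ℝ := fun t => -Real.exp (-(σ * t)) * (t / σ + 1 / σ ^ 2) with hF
  have hd : ∀ t, HasDerivAt F (t * Real.exp (-(σ * t))) t := by
    intro t
    have h1 : HasDerivAt (fun t : ℝ => -(σ * t)) (-σ) t := by
      have : HasDerivAt (fun t : ℝ => -(σ * t)) (-(σ * 1)) t :=
        ((hasDerivAt_id' t).const_mul σ).neg
      simpa using this
    have h2 : HasDerivAt (fun t : ℝ => -Real.exp (-(σ * t))) (-(Real.exp (-(σ * t)) * (-σ))) t :=
      h1.exp.neg
    have h3 : HasDerivAt (fun t : ℝ => t / σ + 1 / σ ^ 2) (1 / σ) t := by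
      simpa using ((hasDerivAt_id t).div_const σ).add_const (1 / σ ^ 2)
    have h4 : HasDerivAt F _ t := h2.mul h3
    convert h4 using 1
    field_simp
    ring
  have hlim : Tendsto F atTop (𝓝 0) := by
    have h1 : Tendsto (fun t : ℝ => σ * t) atTop atTop := tendsto_id.const_mul_atTop hσ
    have h2 := (Real.tendsto_pow_mul_exp_neg_atTop_nhds_zero 1).comp h1
    have h3 := Real.tendsto_exp_neg_atTop_nhds_zero.comp h1
    have h4 := (h2.add h3).mul_const (-(1 / σ ^ 2))
    simp only [add_zero, zero_mul] at h4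
    refine h4.congr (fun t => ?_)
    simp only [hF, Function.comp]
    field_simp
  have hint : IntegrableOn (fun t => t * Real.exp (-(σ * t))) (Ioi p) := by
    apply integrableOn_Ioi_deriv_of_nonneg (g := F) (l := 0)
    · exact (hd p).continuousAt.continuousWithinAt
    · exact fun t _ => hd t
    · intro t ht
      have : (0:ℝ) < t := lt_of_le_of_lt hp ht
      positivity
    · exact hlim
  refine ⟨hint, ?_⟩
  have := integral_Ioi_of_hasDerivAt_of_tendsto (f := F) (m := 0)
    (hd p).continuousAt.continuousWithinAt (fun t _ => hd t) hint hlim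
  rw [this]
  simp [hF]

lemma integrableOn_w_form (p : ℝ) (hp : 0 ≤ p) : IntegrableOn (fun t => t * Real.exp (-t)) (Ioi p) := by
  have := (mul_exp_Ioi (σ := 1) one_pos hp).1
  simpa using this

lemma integral_w_form {p : ℝ} (hp : 0 ≤ p) :
    ∫ t in Ioi p, t * Real.exp (-t) = (1 + p) * Real.exp (-p) := by
  have := (mul_exp_Ioi (σ := 1) one_pos hp).2
  simp only [one_mul, div_one, one_pow] at this
  rw [this]; ring

lemma w_eq_indicator : w = (Ioi 0).indicator (fun t => t * Real.exp (-t)) := by
  funext t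
  simp [w, indicator]

lemma integrable_w : Integrable w := by
  rw [w_eq_indicator, integrable_indicator_iff measurableSet_Ioi]
  exact integrableOn_w_form 0 le_rfl

lemma setIntegral_w_Ioi {p : ℝ} (hp : 0 ≤ p) :
    ∫ t in Ioi p, w t = (1 + p) * Real.exp (-p) := by
  rw [← integral_w_form hp]
  apply setIntegral_congr_fun measurableSet_Ioi
  intro t ht
  have : (0:ℝ) < t := lt_of_le_of_lt hp ht
  simp [w, this]

lemma integral_w : ∫ t, w t = 1 := by
  rw [w_eq_indicator, integral_indicator measurableSet_Ioi, integral_w_form le_rfl]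
  simp

lemma integrable_w_mul {f : ℝ → ℝ} {C : ℝ} (hf : Measurable f) (hb : ∀ t, |f t| ≤ C) :
    Integrable (fun t => w t * f t) := by
  refine integrable_w.mul_bdd (c := C) hf.aestronglyMeasurable ?_
  exact Eventually.of_forall (fun x => by simpa [Real.norm_eq_abs] using hb _)

lemma integrable_ind_sub_ind (p q : ℝ) : Integrable (fun t => ind p t - ind q t) := by
  rcases le_total q p with h | h
  · have : (fun t => ind p t - ind q t) = (Ico q p).indicator (fun _ => (1:ℝ)) := by
      funext t
      simp only [ind, indicator, mem_Ico]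
      by_cases h1 : t < q
      · have h2 : t < p := lt_of_lt_of_le h1 h
        simp [h1, h2]
      · by_cases h2 : t < p
        · simp [h1, h2]
        · simp [h1, h2]
    rw [this, integrable_indicator_iff measurableSet_Ico]
    simp
  · have : (fun t => ind p t - ind q t) = -(Ico p q).indicator (fun _ => (1:ℝ)) := by
      funext t
      simp only [ind, indicator, mem_Ico, Pi.neg_apply]
      by_cases h1 : t < p
      · have h2 : t < q := lt_of_lt_of_le h1 h
        simp [h1, h2]
      · by_cases h2 : t < q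
        · simp [h1, h2]
        · simp [h1, h2]
    rw [this]
    apply Integrable.neg
    rw [integrable_indicator_iff measurableSet_Ico]
    simp

lemma integral_ind_sub_ind (p q : ℝ) : ∫ t, (ind p t - ind q t) = p - q := by
  rcases le_total q p with h | h
  · have : (fun t => ind p t - ind q t) = (Ico q p).indicator (fun _ => (1:ℝ)) := by
      funext t
      simp only [ind, indicator, mem_Ico]
      by_cases h1 : t < q
      · have h2 : t < p := lt_of_lt_of_le h1 h
        simp [h1, h2]
      · by_cases h2 : t < p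
        · simp [h1, h2]
        · simp [h1, h2]
    rw [this, integral_indicator measurableSet_Ico]
    simp [Real.volume_Ico, h]
  · have : (fun t => ind p t - ind q t) = fun t => -(Ico p q).indicator (fun _ => (1:ℝ)) t := by
      funext t
      simp only [ind, indicator, mem_Ico]
      by_cases h1 : t < p
      · have h2 : t < q := lt_of_lt_of_le h1 h
        simp [h1, h2]
      · by_cases h2 : t < q
        · simp [h1, h2]
        · simp [h1, h2]
    rw [this, integral_neg, integral_indicator measurableSet_Ico]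
    simp [Real.volume_Ico, h]

lemma Lfun_sub_ind {s : ℝ} (hs : 0 < s) (τ t : ℝ) :
    Lfun s τ t - ind τ t = (Ici τ).indicator (fun t => Real.exp (-s * (t - τ))) t := by
  simp only [Lfun, ind, indicator, mem_Ici]
  by_cases h : t < τ
  · have h1 : ¬ τ ≤ t := not_le.2 h
    have h2 : 1 ≤ Real.exp (-s * (t - τ)) := by
      apply Real.one_le_exp
      nlinarith
    rw [if_pos h, if_neg h1, min_eq_left h2]; simp
  · have h1 : τ ≤ t := not_lt.1 h
    have h2 : Real.exp (-s * (t - τ)) ≤ 1 := by
      apply Real.exp_le_one_iff.2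
      nlinarith
    rw [if_neg h, if_pos h1, min_eq_right h2]; simp

lemma integrableOn_exp_shift {s : ℝ} (hs : 0 < s) (τ : ℝ) :
    IntegrableOn (fun t => Real.exp (-s * (t - τ))) (Ioi τ) := by
  have h := integrableOn_exp_mul_Ioi (a := -s) (by linarith) τ
  have : (fun t => Real.exp (-s * (t - τ))) = fun t => Real.exp (s * τ) * Real.exp (-s * t) := by
    funext t
    rw [← Real.exp_add]; congr 1; ring
  rw [this]
  exact h.const_mul _

lemma integral_exp_shift {s : ℝ} (hs : 0 < s) (τ : ℝ) :
    ∫ t in Ioi τ, Real.exp (-s * (t - τ)) = 1 / s := by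
  have h := integral_exp_mul_Ioi (a := -s) (by linarith) τ
  have : (fun t => Real.exp (-s * (t - τ))) = fun t => Real.exp (s * τ) * Real.exp (-s * t) := by
    funext t
    rw [← Real.exp_add]; congr 1; ring
  rw [this, integral_const_mul, h]
  have h2 : Real.exp (s * τ) * Real.exp (-s * τ) = 1 := by
    rw [← Real.exp_add]; simp
  rw [neg_div_neg_eq, ← mul_div_assoc, h2]

lemma integrable_Lfun_sub_ind {s : ℝ} (hs : 0 < s) (τ c : ℝ) :
    Integrable (fun t => Lfun s τ t - ind c t) := by
  have h1 : Integrable (fun t => Lfun s τ t - ind τ t) := by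
    simp_rw [Lfun_sub_ind hs]
    rw [integrable_indicator_iff measurableSet_Ici]
    exact (integrableOn_Ici_iff_integrableOn_Ioi (by finiteness)).2 (integrableOn_exp_shift hs τ)
  have h2 := integrable_ind_sub_ind τ c
  have := h1.add h2
  refine this.congr (Eventually.of_forall (fun t => ?_))
  simp

lemma integral_Lfun_sub_ind {s : ℝ} (hs : 0 < s) (τ c : ℝ) :
    ∫ t, (Lfun s τ t - ind c t) = 1 / s + τ - c := by
  have h1 : Integrable (fun t => Lfun s τ t - ind τ t) := by
    simp_rw [Lfun_sub_ind hs]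
    rw [integrable_indicator_iff measurableSet_Ici]
    exact (integrableOn_Ici_iff_integrableOn_Ioi (by finiteness)).2 (integrableOn_exp_shift hs τ)
  have h2 := integrable_ind_sub_ind τ c
  have e : (fun t => Lfun s τ t - ind c t) = fun t => (Lfun s τ t - ind τ t) + (ind τ t - ind c t) := by
    funext t; ring
  rw [e, integral_add h1 h2, integral_ind_sub_ind]
  simp_rw [Lfun_sub_ind hs]
  rw [integral_indicator measurableSet_Ici, integral_Ici_eq_integral_Ioi, integral_exp_shift hs]
  ring

/-- `1 - g u = ∫ w · 1_{t<u}`. -/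
lemma integral_w_ind (u : ℝ) :
    ∫ t, w t * ind u t = 1 - Crest.AlgGeometry.truncExpWeight u := by
  by_cases hu : u ≤ 0
  · have : (fun t => w t * ind u t) = fun _ => 0 := by
      funext t
      simp only [w, ind]
      by_cases h1 : 0 < t
      · have : ¬ t < u := by linarith
        simp [this]
      · simp [h1]
    rw [this]
    simp [Crest.AlgGeometry.truncExpWeight, hu]
  · push Not at hu
    have e : (fun t => w t * ind u t) = fun t => w t - (Ici u).indicator w t := by
      funext t
      simp only [ind, indicator, mem_Ici]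
      by_cases h : t < u
      · have h1 : ¬ u ≤ t := not_le.2 h
        simp [h, h1]
      · have h1 : u ≤ t := not_lt.1 h
        simp [h, h1]
    rw [e, integral_sub integrable_w (integrable_w.indicator measurableSet_Ici),
      integral_w, integral_indicator measurableSet_Ici, integral_Ici_eq_integral_Ioi,
      setIntegral_w_Ioi hu.le]
    have : ¬ u ≤ 0 := not_le.2 hu
    simp [Crest.AlgGeometry.truncExpWeight, this]

lemma integral_w_Lfun_of_nonpos {s τ : ℝ} (hs : 0 < s) (hτ : τ ≤ 0) :
    ∫ t, w t * Lfun s τ t = Real.exp (s * τ) / (1 + s) ^ 2 := by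
  have e : (fun t => w t * Lfun s τ t) =
      (Ioi 0).indicator (fun t => Real.exp (s * τ) * (t * Real.exp (-((1 + s) * t)))) := by
    funext t
    simp only [w, Lfun, indicator, mem_Ioi]
    by_cases h : 0 < t
    · have h2 : Real.exp (-s * (t - τ)) ≤ 1 := by
        apply Real.exp_le_one_iff.2
        nlinarith
      simp only [h, if_true, min_eq_right h2]
      have : -((1 + s) * t) = -t + (-(s * τ) + -s * (t - τ)) := by ring
      rw [this, Real.exp_add, Real.exp_add, Real.exp_neg (s * τ)]
      have h3 := Real.exp_ne_zero (s * τ)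
      field_simp
    · simp [h]
  rw [e, integral_indicator measurableSet_Ioi, integral_const_mul,
    (mul_exp_Ioi (σ := 1 + s) (by linarith) le_rfl).2]
  simp
  field_simp

lemma integral_w_Lfun_of_pos {s τ : ℝ} (hs : 0 < s) (hτ : 0 < τ) :
    ∫ t, w t * Lfun s τ t =
      (1 - (1 + τ) * Real.exp (-τ)) + Real.exp (-τ) * (τ / (1 + s) + 1 / (1 + s) ^ 2) := by
  have hi := (mul_exp_Ioi (σ := 1 + s) (by linarith) hτ.le)
  have e : (fun t => w t * Lfun s τ t) = fun t => w t * ind τ t +
      (Ici τ).indicator (fun t => Real.exp (s * τ) * (t * Real.exp (-((1 + s) * t)))) t := by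
    funext t
    simp only [w, Lfun, indicator, mem_Ici, ind]
    by_cases h : t < τ
    · have h1 : ¬ τ ≤ t := not_le.2 h
      have h2 : 1 ≤ Real.exp (-s * (t - τ)) := by
        apply Real.one_le_exp
        nlinarith
      rw [if_neg h1, if_pos h, min_eq_left h2]; simp
    · have h1 : τ ≤ t := not_lt.1 h
      have h0 : 0 < t := by linarith
      have h2 : Real.exp (-s * (t - τ)) ≤ 1 := by
        apply Real.exp_le_one_iff.2
        nlinarith
      simp only [h, h1, h0, if_true, if_false, min_eq_right h2, mul_zero, zero_add]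
      have : -((1 + s) * t) = -t + (-(s * τ) + -s * (t - τ)) := by ring
      rw [this, Real.exp_add, Real.exp_add, Real.exp_neg (s * τ)]
      have h3 := Real.exp_ne_zero (s * τ)
      field_simp
  rw [e, integral_add]
  · rw [integral_w_ind, integral_indicator measurableSet_Ici, integral_Ici_eq_integral_Ioi,
      integral_const_mul, hi.2]
    have hne : ¬ τ ≤ 0 := not_le.2 hτ
    simp only [Crest.AlgGeometry.truncExpWeight, hne, if_false]
    have : Real.exp (s * τ) * Real.exp (-((1 + s) * τ)) = Real.exp (-τ) := by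
      rw [← Real.exp_add]; congr 1; ring
    calc _ = (1 - (1 + τ) * Real.exp (-τ)) + (Real.exp (s * τ) * Real.exp (-((1 + s) * τ))) *
          (τ / (1 + s) + 1 / (1 + s) ^ 2) := by ring
      _ = _ := by rw [this]
  · exact integrable_w_mul (measurable_ind τ) (fun t => by
      rw [abs_of_nonneg (ind_nonneg τ t)]; exact ind_le_one τ t)
  · rw [integrable_indicator_iff measurableSet_Ici]
    exact (integrableOn_Ici_iff_integrableOn_Ioi (by finiteness)).2 (hi.1.const_mul _)

/-- The value of the lower bound. -/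
noncomputable def mu0 : ℝ := 4 / 9 * Real.exp (-(1 / 3))

lemma exp_neg_third_le : Real.exp (-(1 / 3 : ℝ)) ≤ 18 / 25 := by
  have h : (25 / 18 : ℝ) ≤ Real.exp (1 / 3) := by
    have := Real.quadratic_le_exp_of_nonneg (x := 1 / 3) (by norm_num)
    norm_num at this ⊢
    linarith
  rw [Real.exp_neg]
  rw [inv_eq_one_div, div_le_div_iff₀ (Real.exp_pos _) (by norm_num)]
  linarith

lemma I_poly {u : ℝ} (hu : 0 ≤ u) (hu' : u ≤ 4 / 3) :
    33 / 9 + u / 3 - u ^ 2 ≤ 33 / 49 * (7 / 3 - u) ^ 2 * (1 + u + u ^ 2 / 2 + u ^ 3 / 6) := by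
  have hq : 0 ≤ 168 + 321 * u - 253 * u ^ 2 - 165 * u ^ 3 + 99 * u ^ 4 := by
    nlinarith [mul_nonneg hu (sub_nonneg.2 hu'), sq_nonneg u, sq_nonneg (u ^ 2 - u),
      mul_nonneg (mul_nonneg hu hu) (sub_nonneg.2 hu'), sq_nonneg (u ^ 2 - 2 * u + 1),
      mul_nonneg (mul_nonneg (mul_nonneg hu hu) hu) (sub_nonneg.2 hu')]
  have : 33 / 49 * (7 / 3 - u) ^ 2 * (1 + u + u ^ 2 / 2 + u ^ 3 / 6) - (33 / 9 + u / 3 - u ^ 2) =
      u / 882 * (168 + 321 * u - 253 * u ^ 2 - 165 * u ^ 3 + 99 * u ^ 4) := by ring
  have h2 : 0 ≤ u / 882 * (168 + 321 * u - 253 * u ^ 2 - 165 * u ^ 3 + 99 * u ^ 4) := by positivity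
  linarith

lemma R_id (u B : ℝ) (hB : B ≠ 0) (h : B = 7 / 3 - u) :
    (1 + u) - u * ((B - 1) / B) - ((B - 1) / B) ^ 2 = (33 / 9 + u / 3 - u ^ 2) / B ^ 2 := by
  have hu : u = 7 / 3 - B := by linarith
  subst hu
  field_simp
  ring

/-- The one-parameter inequality at the mean-zero parameter. -/
lemma I_bound_base {s : ℝ} (hs : 0 < s) :
    mu0 ≤ ∫ t, w t * Lfun s (4 / 3 - 1 / s) t := by
  by_cases hτ : 4 / 3 - 1 / s ≤ 0
  · rw [integral_w_Lfun_of_nonpos hs hτ]
    -- exp (s τ) / (1+s)^2 ≥ 4/9 exp(-1/3)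
    have h1 : s * (4 / 3 - 1 / s) = 4 / 3 * s - 1 := by field_simp
    rw [h1, mu0, le_div_iff₀ (by positivity)]
    set x : ℝ := 2 / 3 * s - 1 / 3 with hx
    have h2 : x + 1 ≤ Real.exp x := Real.add_one_le_exp x
    have h3 : 1 + s ≤ 3 / 2 * Real.exp x := by rw [hx] at h2 ⊢; linarith
    have h4 : (1 + s) ^ 2 ≤ (3 / 2 * Real.exp x) ^ 2 := by
      apply pow_le_pow_left₀ (by linarith) h3
    have h5 : Real.exp x ^ 2 * Real.exp (-(1 / 3)) = Real.exp (4 / 3 * s - 1) := by
      rw [← Real.exp_nat_mul, ← Real.exp_add]; congr 1; rw [hx]; push_cast; ring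
    have h6 := Real.exp_pos (-(1 / 3 : ℝ))
    calc 4 / 9 * Real.exp (-(1 / 3)) * (1 + s) ^ 2
        ≤ 4 / 9 * Real.exp (-(1 / 3)) * (3 / 2 * Real.exp x) ^ 2 := by
          apply mul_le_mul_of_nonneg_left h4 (by positivity)
      _ = Real.exp x ^ 2 * Real.exp (-(1 / 3)) := by ring
      _ = _ := h5
  · push Not at hτ
    rw [integral_w_Lfun_of_pos hs hτ]
    set u : ℝ := 4 / 3 - 1 / s with hu
    have hA : 1 / s = 4 / 3 - u := by rw [hu]; ring
    have hu' : u ≤ 4 / 3 := by
      rw [hu]; have : 0 < 1 / s := by positivity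
      linarith
    have hA0 : 0 < 4 / 3 - u := by rw [← hA]; positivity
    have hss : s = 1 / (4 / 3 - u) := by rw [← hA]; field_simp
    have h73 : 0 < 7 / 3 - u := by linarith
    have hsA : s * (4 / 3 - u) = 1 := by rw [← hA]; field_simp
    have e1 : 1 / (1 + s) = (4 / 3 - u) / (7 / 3 - u) := by
      rw [div_eq_div_iff (by positivity) h73.ne']
      linarith
    have e2 : u / (1 + s) = u * ((4 / 3 - u) / (7 / 3 - u)) := by
      rw [div_eq_mul_one_div, e1]
    have e3 : 1 / (1 + s) ^ 2 = ((4 / 3 - u) / (7 / 3 - u)) ^ 2 := by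
      rw [← e1]; field_simp
    rw [e2, e3]
    -- value is 1 - exp(-u) R
    have hR : (1 + u) - u * ((4 / 3 - u) / (7 / 3 - u)) - ((4 / 3 - u) / (7 / 3 - u)) ^ 2 =
        (33 / 9 + u / 3 - u ^ 2) / (7 / 3 - u) ^ 2 := by
      have : 4 / 3 - u = (7 / 3 - u) - 1 := by ring
      rw [this]
      exact R_id u _ h73.ne' rfl
    have hexp : 1 + u + u ^ 2 / 2 + u ^ 3 / 6 ≤ Real.exp u := by
      have := Real.sum_le_exp_of_nonneg hτ.le 4
      simpa [Finset.sum_range_succ, Nat.factorial] using this
    have hpoly := I_poly hτ.le hu'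
    have hRle : (33 / 9 + u / 3 - u ^ 2) / (7 / 3 - u) ^ 2 ≤ 33 / 49 * Real.exp u := by
      rw [div_le_iff₀ (by positivity)]
      have h7 : 33 / 49 * (7 / 3 - u) ^ 2 * (1 + u + u ^ 2 / 2 + u ^ 3 / 6) ≤
          33 / 49 * (7 / 3 - u) ^ 2 * Real.exp u := by
        apply mul_le_mul_of_nonneg_left hexp (by positivity)
      linarith
    have hfin : Real.exp (-u) * ((33 / 9 + u / 3 - u ^ 2) / (7 / 3 - u) ^ 2) ≤ 33 / 49 := by
      have h8 := mul_le_mul_of_nonneg_left hRle (Real.exp_pos (-u)).le
      have h9 : Real.exp (-u) * (33 / 49 * Real.exp u) = 33 / 49 := by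
        rw [Real.exp_neg]; field_simp
      linarith
    have h10 := exp_neg_third_le
    have h11 : mu0 ≤ 16 / 49 := by
      unfold mu0
      have h12 : Real.exp (-(1 / 3 : ℝ)) ≤ 36 / 49 := by linarith [show (18 / 25 : ℝ) ≤ 36 / 49 by norm_num]
      linarith
    rw [← hR] at hfin
    nlinarith [hfin, h11]

lemma I_bound {s τ : ℝ} (hs : 0 < s) (hτ : 4 / 3 - 1 / s ≤ τ) :
    mu0 ≤ ∫ t, w t * Lfun s τ t := by
  refine (I_bound_base hs).trans ?_
  apply integral_mono
  · exact integrable_w_mul (measurable_Lfun _ _) (abs_Lfun_le _ _)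
  · exact integrable_w_mul (measurable_Lfun _ _) (abs_Lfun_le _ _)
  · intro t
    exact mul_le_mul_of_nonneg_left (Lfun_mono hs.le hτ t) (w_nonneg t)

end Crest.Agent.Lib.TruncExp
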