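import Crest.Agent.Lib.TruncExp.LogConcave
import Crest.Agent.Lib.TruncExp.Calc

set_option autoImplicit false

open MeasureTheory Set Real Filter Topology

namespace Crest.Agent.Lib.TruncExp

section chord

variable {S : Set ℝ} {φ : ℝ → ℝ}

lemma chord_in (h : ConcaveOn ℝ S φ) {t1 t2 t : ℝ} (ht1 : t1 ∈ S) (ht2 : t2 ∈ S) (h12 : t1 < t2)
    (ht : t ∈ Icc t1 t2) :
    φ t1 - (φ t1 - φ t2) / (t2 - t1) * (t - t1) ≤ φ t := by
  have hd : 0 < t2 - t1 := by linarith
  have ha : 0 ≤ (t2 - t) / (t2 - t1) := div_nonneg (by linarith [ht.2]) hd.le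
  have hb : 0 ≤ (t - t1) / (t2 - t1) := div_nonneg (by linarith [ht.1]) hd.le
  have hab : (t2 - t) / (t2 - t1) + (t - t1) / (t2 - t1) = 1 := by
    field_simp; ring
  have h1 := h.2 ht1 ht2 ha hb hab
  have e : ((t2 - t) / (t2 - t1)) • t1 + ((t - t1) / (t2 - t1)) • t2 = t := by
    simp only [smul_eq_mul]; field_simp; ring
  rw [e] at h1
  simp only [smul_eq_mul] at h1
  have e2 : φ t1 - (φ t1 - φ t2) / (t2 - t1) * (t - t1) =
      (t2 - t) / (t2 - t1) * φ t1 + (t - t1) / (t2 - t1) * φ t2 := by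
    field_simp; ring
  rw [e2]; exact h1

lemma chord_out_left (h : ConcaveOn ℝ S φ) {t1 t2 t : ℝ} (ht2 : t2 ∈ S) (ht : t ∈ S)
    (h12 : t1 < t2) (hle : t ≤ t1) :
    φ t ≤ φ t1 - (φ t1 - φ t2) / (t2 - t1) * (t - t1) := by
  have hd : 0 < t2 - t1 := by linarith
  have he : 0 < t2 - t := by linarith
  have ha : 0 ≤ (t2 - t1) / (t2 - t) := div_nonneg hd.le he.le
  have hb : 0 ≤ (t1 - t) / (t2 - t) := div_nonneg (by linarith) he.le
  have hab : (t2 - t1) / (t2 - t) + (t1 - t) / (t2 - t) = 1 := by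
    field_simp; ring
  have h1 := h.2 ht ht2 ha hb hab
  have e : ((t2 - t1) / (t2 - t)) • t + ((t1 - t) / (t2 - t)) • t2 = t1 := by
    simp only [smul_eq_mul]; field_simp; ring
  rw [e] at h1
  simp only [smul_eq_mul] at h1
  have key : (t2 - t1) * φ t + (t1 - t) * φ t2 ≤ (t2 - t) * φ t1 := by
    have h2 := mul_le_mul_of_nonneg_left h1 he.le
    have e3 : (t2 - t) * ((t2 - t1) / (t2 - t) * φ t + (t1 - t) / (t2 - t) * φ t2) =
        (t2 - t1) * φ t + (t1 - t) * φ t2 := by field_simp
    rw [e3] at h2; exact h2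
  have hsl : (φ t1 - φ t2) / (t2 - t1) * (t2 - t1) = φ t1 - φ t2 :=
    div_mul_cancel₀ _ hd.ne'
  set sl := (φ t1 - φ t2) / (t2 - t1) with hsl_def
  have h3 : (t2 - t1) * φ t ≤ (t2 - t1) * (φ t1 - sl * (t - t1)) := by
    have : (t2 - t1) * (φ t1 - sl * (t - t1)) = (t2 - t1) * φ t1 - (sl * (t2 - t1)) * (t - t1) := by
      ring
    rw [this, hsl]
    nlinarith [key]
  exact le_of_mul_le_mul_left h3 hd

lemma chord_out_right (h : ConcaveOn ℝ S φ) {t1 t2 t : ℝ} (ht1 : t1 ∈ S) (ht : t ∈ S)
    (h12 : t1 < t2) (hge : t2 ≤ t) :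
    φ t ≤ φ t1 - (φ t1 - φ t2) / (t2 - t1) * (t - t1) := by
  have hd : 0 < t2 - t1 := by linarith
  have he : 0 < t - t1 := by linarith
  have ha : 0 ≤ (t - t2) / (t - t1) := div_nonneg (by linarith) he.le
  have hb : 0 ≤ (t2 - t1) / (t - t1) := div_nonneg hd.le he.le
  have hab : (t - t2) / (t - t1) + (t2 - t1) / (t - t1) = 1 := by
    field_simp; ring
  have h1 := h.2 ht1 ht ha hb hab
  have e : ((t - t2) / (t - t1)) • t1 + ((t2 - t1) / (t - t1)) • t = t2 := by
    simp only [smul_eq_mul]; field_simp; ring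
  rw [e] at h1
  simp only [smul_eq_mul] at h1
  have key : (t - t2) * φ t1 + (t2 - t1) * φ t ≤ (t - t1) * φ t2 := by
    have h2 := mul_le_mul_of_nonneg_left h1 he.le
    have e3 : (t - t1) * ((t - t2) / (t - t1) * φ t1 + (t2 - t1) / (t - t1) * φ t) =
        (t - t2) * φ t1 + (t2 - t1) * φ t := by field_simp
    rw [e3] at h2; exact h2
  have hsl : (φ t1 - φ t2) / (t2 - t1) * (t2 - t1) = φ t1 - φ t2 :=
    div_mul_cancel₀ _ hd.ne'
  set sl := (φ t1 - φ t2) / (t2 - t1) with hsl_def
  have h3 : (t2 - t1) * φ t ≤ (t2 - t1) * (φ t1 - sl * (t - t1)) := by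
    have : (t2 - t1) * (φ t1 - sl * (t - t1)) = (t2 - t1) * φ t1 - (sl * (t2 - t1)) * (t - t1) := by
      ring
    rw [this, hsl]
    nlinarith [key]
  exact le_of_mul_le_mul_left h3 hd

end chord

lemma concave_log_sub_id : ConcaveOn ℝ (Ioi (0:ℝ)) (fun t => Real.log t - t) :=
  (strictConcaveOn_log_Ioi.concaveOn).sub (convexOn_id (convex_Ioi 0))

/-- Level-set structure of the weight. -/
lemma w_in {t1 t2 t : ℝ} (h0 : 0 < t1) (h12 : t1 < t2)
    (hlev : t1 * Real.exp (-t1) = t2 * Real.exp (-t2)) (ht : t ∈ Icc t1 t2) :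
    t1 * Real.exp (-t1) ≤ w t := by
  have ht0 : 0 < t := by linarith [ht.1]
  have ht2 : 0 < t2 := by linarith
  have hlog : Real.log t1 - t1 = Real.log t2 - t2 := by
    have h1 := congrArg Real.log hlev
    rw [Real.log_mul h0.ne' (Real.exp_pos _).ne', Real.log_mul ht2.ne' (Real.exp_pos _).ne',
      Real.log_exp, Real.log_exp] at h1
    linarith
  have h := chord_in concave_log_sub_id (mem_Ioi.2 h0) (mem_Ioi.2 ht2) h12 ht
  rw [hlog] at h
  simp only [sub_self, zero_div, zero_mul, sub_zero] at h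
  rw [← hlog] at h
  have : t1 * Real.exp (-t1) = Real.exp (Real.log t1 - t1) := by
    rw [sub_eq_add_neg, Real.exp_add, Real.exp_log h0]
  rw [this]
  have h2 : w t = Real.exp (Real.log t - t) := by
    rw [sub_eq_add_neg, Real.exp_add, Real.exp_log ht0]; simp [w, ht0]
  rw [h2]
  exact Real.exp_le_exp.2 h

lemma w_out {t1 t2 t : ℝ} (h0 : 0 < t1) (h12 : t1 < t2)
    (hlev : t1 * Real.exp (-t1) = t2 * Real.exp (-t2)) (ht : t ∉ Ioo t1 t2) :
    w t ≤ t1 * Real.exp (-t1) := by
  have ht2 : 0 < t2 := by linarith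
  by_cases ht0 : 0 < t
  · have hlog : Real.log t1 - t1 = Real.log t2 - t2 := by
      have h1 := congrArg Real.log hlev
      rw [Real.log_mul h0.ne' (Real.exp_pos _).ne', Real.log_mul ht2.ne' (Real.exp_pos _).ne',
        Real.log_exp, Real.log_exp] at h1
      linarith
    have h : Real.log t - t ≤ Real.log t1 - t1 := by
      have hs : (Real.log t1 - t1 - (Real.log t2 - t2)) / (t2 - t1) * (t - t1) = 0 := by
        rw [hlog]; simp
      by_cases hle : t ≤ t1
      · have := chord_out_left concave_log_sub_id (mem_Ioi.2 ht2) (mem_Ioi.2 ht0) h12 hle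
        rw [hs] at this
        linarith
      · have hge : t2 ≤ t := by
          by_contra hlt
          exact ht ⟨not_le.1 hle, not_le.1 hlt⟩
        have := chord_out_right concave_log_sub_id (mem_Ioi.2 h0) (mem_Ioi.2 ht0) h12 hge
        rw [hs] at this
        linarith
    have e1 : t1 * Real.exp (-t1) = Real.exp (Real.log t1 - t1) := by
      rw [sub_eq_add_neg, Real.exp_add, Real.exp_log h0]
    have h2 : w t = Real.exp (Real.log t - t) := by
      rw [sub_eq_add_neg, Real.exp_add, Real.exp_log ht0]; simp [w, ht0]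
    rw [e1, h2]
    exact Real.exp_le_exp.2 h
  · have : w t = 0 := by simp [w, ht0]
    rw [this]; positivity

section main

variable {G : ℝ → ℝ} {c : ℝ}

/-- The crossing inequality, integrated. -/
lemma main_ineq (hG : IsLC G) (hint : Integrable (fun t => G t - ind c t))
    (h0 : ∫ t, (G t - ind c t) = 0) {s τ κ : ℝ} (hs : 0 < s)
    (hpt : ∀ t, 0 ≤ (G t - Lfun s τ t) * (w t - κ)) :
    (∫ t, w t * Lfun s τ t) - κ * (1 / s + τ - c) ≤ ∫ t, w t * G t := by
  have hL := integrable_Lfun_sub_ind hs τ c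
  have hD : Integrable (fun t => G t - Lfun s τ t) := by
    refine (hint.sub hL).congr (Eventually.of_forall (fun t => ?_))
    simp
  have hDint : ∫ t, (G t - Lfun s τ t) = -(1 / s + τ - c) := by
    have e : (fun t => G t - Lfun s τ t) = fun t => (G t - ind c t) - (Lfun s τ t - ind c t) := by
      funext t; ring
    rw [e, integral_sub hint hL, h0, integral_Lfun_sub_ind hs]
    ring
  have hGw : Integrable (fun t => w t * G t) :=
    integrable_w_mul hG.cont.measurable hG.abs_le
  have hLw : Integrable (fun t => w t * Lfun s τ t) :=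
    integrable_w_mul (measurable_Lfun _ _) (abs_Lfun_le _ _)
  have hsplit : (fun t => (G t - Lfun s τ t) * (w t - κ)) =
      fun t => (w t * G t - w t * Lfun s τ t) - κ * (G t - Lfun s τ t) := by
    funext t; ring
  have hnn : 0 ≤ ∫ t, (G t - Lfun s τ t) * (w t - κ) := integral_nonneg hpt
  have e1 := integral_sub (f := fun t => w t * G t - w t * Lfun s τ t)
    (g := fun t => κ * (G t - Lfun s τ t)) (hGw.sub hLw) (hD.const_mul κ)
  have e2 := integral_sub hGw hLw
  rw [hsplit, e1, e2, integral_const_mul, hDint] at hnn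
  nlinarith [hnn]

end main

section rho

/-- Lower point of the level set with ratio `ρ`. -/
noncomputable def T1 (ρ : ℝ) : ℝ := Real.log ρ / (ρ - 1)
/-- Upper point of the level set with ratio `ρ`. -/
noncomputable def T2 (ρ : ℝ) : ℝ := ρ * Real.log ρ / (ρ - 1)

variable {ρ : ℝ}

lemma T2_sub_T1 (hρ : 1 < ρ) : T2 ρ - T1 ρ = Real.log ρ := by
  have : ρ - 1 ≠ 0 := by linarith
  unfold T1 T2
  field_simp

lemma T1_pos (hρ : 1 < ρ) : 0 < T1 ρ := by
  unfold T1
  exact div_pos (Real.log_pos hρ) (by linarith)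

lemma T1_lt_T2 (hρ : 1 < ρ) : T1 ρ < T2 ρ := by
  have := T2_sub_T1 hρ
  have h2 := Real.log_pos hρ
  linarith

lemma T_level (hρ : 1 < ρ) : T1 ρ * Real.exp (-T1 ρ) = T2 ρ * Real.exp (-T2 ρ) := by
  have h1 : T2 ρ = ρ * T1 ρ := by
    unfold T1 T2; ring
  have h2 : Real.exp (-T1 ρ) = ρ * Real.exp (-T2 ρ) := by
    have : -T1 ρ = Real.log ρ + -T2 ρ := by linarith [T2_sub_T1 hρ]
    rw [this, Real.exp_add, Real.exp_log (by linarith)]
  rw [h2, h1]
  ring_nf

lemma continuousOn_log_Ioi_one : ContinuousOn Real.log (Ioi 1) :=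
  Real.continuousOn_log.mono (fun x (hx : 1 < x) => by
    simp only [mem_compl_iff, mem_singleton_iff]; intro h; rw [h] at hx; linarith)

lemma continuousOn_T1 : ContinuousOn T1 (Ioi 1) := by
  unfold T1
  apply ContinuousOn.div continuousOn_log_Ioi_one (by fun_prop)
  intro x (hx : 1 < x)
  linarith

lemma continuousOn_T2 : ContinuousOn T2 (Ioi 1) := by
  unfold T2
  apply ContinuousOn.div (continuousOn_id.mul continuousOn_log_Ioi_one) (by fun_prop)
  intro x (hx : 1 < x)
  linarith

end rho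

section final

variable {G : ℝ → ℝ}

/-- Slope of the chord. -/
noncomputable def sl (G : ℝ → ℝ) (ρ : ℝ) : ℝ :=
  (Real.log (G (T1 ρ)) - Real.log (G (T2 ρ))) / (T2 ρ - T1 ρ)

/-- Normalised mean of the chord. -/
noncomputable def mt (G : ℝ → ℝ) (ρ : ℝ) : ℝ :=
  1 + sl G ρ * (T1 ρ - 4 / 3) + Real.log (G (T1 ρ))

lemma sl_nonneg (hG : IsLC G) {ρ : ℝ} (hρ : 1 < ρ) : 0 ≤ sl G ρ := by
  unfold sl
  apply div_nonneg
  · have := hG.anti (T1_lt_T2 hρ).le
    have h2 := Real.log_le_log (hG.pos _) this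
    linarith
  · linarith [T1_lt_T2 hρ]

lemma log_eq_zero_of_sl_eq_zero (hG : IsLC G) {c : ℝ} (hint : Integrable (fun t => G t - ind c t))
    {ρ : ℝ} (hρ : 1 < ρ) (h : sl G ρ = 0) : Real.log (G (T1 ρ)) = 0 := by
  have h12 := T1_lt_T2 hρ
  have hd : T2 ρ - T1 ρ ≠ 0 := by linarith
  have hs : Real.log (G (T1 ρ)) - Real.log (G (T2 ρ)) = 0 := by
    unfold sl at h
    rcases div_eq_zero_iff.1 h with h1 | h1
    · exact h1
    · exact absurd h1 hd
  have hconst : ∀ u ≤ T1 ρ, G u = G (T1 ρ) := by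
    intro u hu
    have h1 := chord_out_left hG.conc (mem_univ (T2 ρ)) (mem_univ u) h12 hu
    rw [hs] at h1
    simp only [zero_div, zero_mul, sub_zero] at h1
    have h2 : G u ≤ G (T1 ρ) := (Real.log_le_log_iff (hG.pos _) (hG.pos _)).1 h1
    exact le_antisymm h2 (hG.anti hu)
  have hone : G (T1 ρ) = 1 := by
    by_contra hne
    set a := min (T1 ρ) c with ha
    have hI : IntegrableOn (fun t => G t - ind c t) (Iio a) := hint.integrableOn
    have hE : IntegrableOn (fun _ : ℝ => G (T1 ρ) - 1) (Iio a) := by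
      refine hI.congr_fun (fun t (ht : t < a) => ?_) measurableSet_Iio
      have h1 : t ≤ T1 ρ := (lt_of_lt_of_le ht (min_le_left _ _)).le
      have h2 : t < c := lt_of_lt_of_le ht (min_le_right _ _)
      simp [hconst t h1, ind, h2]
    rw [integrableOn_const_iff (by simp)] at hE
    have hz : G (T1 ρ) - 1 = 0 := by simpa using hE
    exact hne (by linarith)
  rw [hone, Real.log_one]

lemma mt_eq_one_of_sl_eq_zero (hG : IsLC G) {c : ℝ} (hint : Integrable (fun t => G t - ind c t))
    {ρ : ℝ} (hρ : 1 < ρ) (h : sl G ρ = 0) : mt G ρ = 1 := by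
  unfold mt
  rw [h, log_eq_zero_of_sl_eq_zero hG hint hρ h]
  ring

/-- The position where the chord exponential reaches height one. -/
noncomputable def tauC (G : ℝ → ℝ) (ρ : ℝ) : ℝ := T1 ρ + Real.log (G (T1 ρ)) / sl G ρ

lemma Lfun_eq_chord (ρ : ℝ) (hs : 0 < sl G ρ) (t : ℝ) :
    Lfun (sl G ρ) (tauC G ρ) t =
      min 1 (Real.exp (Real.log (G (T1 ρ)) -
        (Real.log (G (T1 ρ)) - Real.log (G (T2 ρ))) / (T2 ρ - T1 ρ) * (t - T1 ρ))) := by
  unfold Lfun tauC
  congr 2
  change -sl G ρ * (t - (T1 ρ + Real.log (G (T1 ρ)) / sl G ρ)) =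
    Real.log (G (T1 ρ)) - sl G ρ * (t - T1 ρ)
  field_simp
  ring

lemma Lfun_le_in (hG : IsLC G) {ρ : ℝ} (hρ : 1 < ρ) (hs : 0 < sl G ρ) {t : ℝ}
    (ht : t ∈ Icc (T1 ρ) (T2 ρ)) : Lfun (sl G ρ) (tauC G ρ) t ≤ G t := by
  rw [Lfun_eq_chord ρ hs]
  have h := chord_in hG.conc (mem_univ (T1 ρ)) (mem_univ (T2 ρ)) (T1_lt_T2 hρ) ht
  refine (min_le_right _ _).trans ?_
  calc _ ≤ Real.exp (Real.log (G t)) := Real.exp_le_exp.2 h
    _ = G t := Real.exp_log (hG.pos t)

lemma le_Lfun_out (hG : IsLC G) {ρ : ℝ} (hρ : 1 < ρ) (hs : 0 < sl G ρ) {t : ℝ}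
    (ht : t ∉ Ioo (T1 ρ) (T2 ρ)) : G t ≤ Lfun (sl G ρ) (tauC G ρ) t := by
  rw [Lfun_eq_chord ρ hs]
  refine le_min (hG.le_one t) ?_
  have h : Real.log (G t) ≤ Real.log (G (T1 ρ)) -
      (Real.log (G (T1 ρ)) - Real.log (G (T2 ρ))) / (T2 ρ - T1 ρ) * (t - T1 ρ) := by
    by_cases hle : t ≤ T1 ρ
    · exact chord_out_left hG.conc (mem_univ _) (mem_univ _) (T1_lt_T2 hρ) hle
    · have hge : T2 ρ ≤ t := by
        by_contra hlt
        exact ht ⟨not_le.1 hle, not_le.1 hlt⟩
      exact chord_out_right hG.conc (mem_univ _) (mem_univ _) (T1_lt_T2 hρ) hge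
  calc G t = Real.exp (Real.log (G t)) := (Real.exp_log (hG.pos t)).symm
    _ ≤ _ := Real.exp_le_exp.2 h

lemma hpt_chord (hG : IsLC G) {ρ : ℝ} (hρ : 1 < ρ) (hs : 0 < sl G ρ) (t : ℝ) :
    0 ≤ (G t - Lfun (sl G ρ) (tauC G ρ) t) * (w t - T1 ρ * Real.exp (-T1 ρ)) := by
  by_cases ht : t ∈ Icc (T1 ρ) (T2 ρ)
  · apply mul_nonneg
    · linarith [Lfun_le_in hG hρ hs ht]
    · linarith [w_in (T1_pos hρ) (T1_lt_T2 hρ) (T_level hρ) ht]
  · have ht' : t ∉ Ioo (T1 ρ) (T2 ρ) := fun h => ht (Ioo_subset_Icc_self h)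
    apply mul_nonneg_of_nonpos_of_nonpos
    · linarith [le_Lfun_out hG hρ hs ht']
    · linarith [w_out (T1_pos hρ) (T1_lt_T2 hρ) (T_level hρ) ht']

lemma mean_eq {ρ : ℝ} (hs : 0 < sl G ρ) :
    1 / sl G ρ + tauC G ρ - 4 / 3 = mt G ρ / sl G ρ := by
  unfold tauC mt
  field_simp
  ring

/-- Step for the case where the chord has nonnegative mean. -/
lemma bump_bound (hG : IsLC G) {ρ : ℝ} (hρ : 1 < ρ) {L : ℝ → ℝ} (hm : Measurable L)
    (h0 : ∀ t, 0 ≤ L t) (h1 : ∀ t, L t ≤ 1) (hin : ∀ t ∈ Icc (T1 ρ) (T2 ρ), L t ≤ G t) :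
    ∫ t, w t * L t ≤ (∫ t, w t * G t) +
      ((1 - (1 + T1 ρ) * Real.exp (-T1 ρ)) + (1 + T2 ρ) * Real.exp (-T2 ρ)) := by
  have hT1 := T1_pos hρ
  have hT2 : 0 < T2 ρ := by linarith [T1_lt_T2 hρ]
  have hLabs : ∀ t, |L t| ≤ 1 := fun t => by rw [abs_of_nonneg (h0 t)]; exact h1 t
  have iL := integrable_w_mul hm hLabs
  have iG := integrable_w_mul hG.cont.measurable hG.abs_le
  have iI : Integrable (fun t => w t * ind (T1 ρ) t) :=
    integrable_w_mul (measurable_ind _) (fun t => by
      rw [abs_of_nonneg (ind_nonneg _ t)]; exact ind_le_one _ t)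
  have iT : Integrable ((Ioi (T2 ρ)).indicator w) := integrable_w.indicator measurableSet_Ioi
  have hpt : ∀ t, w t * L t ≤ w t * G t + (w t * ind (T1 ρ) t + (Ioi (T2 ρ)).indicator w t) := by
    intro t
    have hw := w_nonneg t
    have hGp := hG.pos t
    by_cases ht : t ∈ Icc (T1 ρ) (T2 ρ)
    · have := mul_le_mul_of_nonneg_left (hin t ht) hw
      have h2 : 0 ≤ w t * ind (T1 ρ) t := mul_nonneg hw (ind_nonneg _ _)
      have h3 : 0 ≤ (Ioi (T2 ρ)).indicator w t :=
        indicator_nonneg (fun x _ => w_nonneg x) t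
      linarith
    · have hle : w t * L t ≤ w t := by nlinarith [h1 t]
      have hGw : 0 ≤ w t * G t := by positivity
      by_cases hlt : t < T1 ρ
      · have e : w t * ind (T1 ρ) t = w t := by simp [ind, hlt]
        have h3 : 0 ≤ (Ioi (T2 ρ)).indicator w t :=
          indicator_nonneg (fun x _ => w_nonneg x) t
        linarith
      · have hgt : T2 ρ < t := by
          by_contra h
          exact ht ⟨not_lt.1 hlt, not_lt.1 h⟩
        have e : (Ioi (T2 ρ)).indicator w t = w t := indicator_of_mem hgt _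
        have h2 : 0 ≤ w t * ind (T1 ρ) t := mul_nonneg hw (ind_nonneg _ _)
        linarith
  have hint := integral_mono iL (iG.add (iI.add iT)) hpt
  rw [integral_add' iG (iI.add iT), integral_add' iI iT, integral_w_ind,
    integral_indicator measurableSet_Ioi, setIntegral_w_Ioi hT2.le] at hint
  have hne : ¬ T1 ρ ≤ 0 := not_le.2 hT1
  simpa [Crest.AlgGeometry.truncExpWeight, hne] using hint

lemma tendsto_T1_atTop : Tendsto T1 atTop (𝓝 0) := by
  have h := Real.tendsto_pow_log_div_mul_add_atTop 1 (-1) 1 (by norm_num)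
  refine h.congr (fun x => ?_)
  simp [T1, sub_eq_add_neg]

lemma tendsto_T2_atTop : Tendsto T2 atTop atTop := by
  refine tendsto_atTop_mono' atTop ?_ Real.tendsto_log_atTop
  filter_upwards [eventually_gt_atTop 1] with ρ hρ
  have := T2_sub_T1 hρ
  have h2 := T1_pos hρ
  linarith

lemma tendsto_eps : Tendsto (fun ρ =>
    (1 - (1 + T1 ρ) * Real.exp (-T1 ρ)) + (1 + T2 ρ) * Real.exp (-T2 ρ)) atTop (𝓝 0) := by
  have h1 : Tendsto (fun ρ => 1 - (1 + T1 ρ) * Real.exp (-T1 ρ)) atTop
      (𝓝 (1 - (1 + 0) * Real.exp (-0))) := by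
    apply Tendsto.sub tendsto_const_nhds
    apply Tendsto.mul (tendsto_const_nhds.add tendsto_T1_atTop)
    exact (Real.continuous_exp.tendsto _).comp tendsto_T1_atTop.neg
  have h2 : Tendsto (fun ρ => (1 + T2 ρ) * Real.exp (-T2 ρ)) atTop (𝓝 0) := by
    have h3 := (Real.tendsto_pow_mul_exp_neg_atTop_nhds_zero 1).comp tendsto_T2_atTop
    have h4 := Real.tendsto_exp_neg_atTop_nhds_zero.comp tendsto_T2_atTop
    have h5 := h4.add h3
    simp only [add_zero] at h5
    refine h5.congr (fun ρ => ?_)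
    simp only [Function.comp]
    ring
  have h3 := h1.add h2
  simpa using h3

/-- The main lower bound for log-concave survival functions with mean zero. -/
theorem key_bound (hG : IsLC G) (hint : Integrable (fun t => G t - ind (4 / 3) t))
    (h0 : ∫ t, (G t - ind (4 / 3) t) = 0) : mu0 ≤ ∫ t, w t * G t := by
  have hlogG : Continuous (fun t => Real.log (G t)) :=
    hG.cont.log (fun t => (hG.pos t).ne')
  have hmtc : ContinuousOn (mt G) (Ioi 1) := by
    unfold mt sl
    have hT1 : ContinuousOn (fun ρ => Real.log (G (T1 ρ))) (Ioi 1) :=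
      hlogG.comp_continuousOn continuousOn_T1
    have hT2 : ContinuousOn (fun ρ => Real.log (G (T2 ρ))) (Ioi 1) :=
      hlogG.comp_continuousOn continuousOn_T2
    refine (continuousOn_const.add (ContinuousOn.mul ?_ ?_)).add hT1
    · apply ContinuousOn.div (hT1.sub hT2) (continuousOn_T2.sub continuousOn_T1)
      intro ρ (hρ : 1 < ρ)
      simp only [Pi.sub_apply]
      linarith [T1_lt_T2 hρ]
    · exact continuousOn_T1.sub continuousOn_const
  have hmu1 : mu0 ≤ 1 := by
    unfold mu0
    have := exp_neg_third_le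
    linarith
  by_cases hzero : ∃ ρ, 1 < ρ ∧ mt G ρ = 0
  · -- exact matching
    obtain ⟨ρ, hρ, hz⟩ := hzero
    have hs : 0 < sl G ρ := by
      rcases (sl_nonneg hG hρ).lt_or_eq with h | h
      · exact h
      · have := mt_eq_one_of_sl_eq_zero hG hint hρ h.symm
        rw [hz] at this; norm_num at this
    have hm := main_ineq hG hint h0 hs (hpt_chord hG hρ hs)
    rw [mean_eq hs, hz] at hm
    simp only [zero_div, mul_zero, sub_zero] at hm
    refine le_trans (I_bound hs ?_) hm
    have := mean_eq hs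
    rw [hz, zero_div] at this
    linarith
  by_cases hpos : ∀ ρ, 1 < ρ → 0 < mt G ρ
  · -- the chord always has positive mean: let ρ → ∞
    have hb : ∀ ρ, 1 < ρ → mu0 - ((1 - (1 + T1 ρ) * Real.exp (-T1 ρ)) +
        (1 + T2 ρ) * Real.exp (-T2 ρ)) ≤ ∫ t, w t * G t := by
      intro ρ hρ
      rcases (sl_nonneg hG hρ).lt_or_eq with hs | hs
      · have hI : mu0 ≤ ∫ t, w t * Lfun (sl G ρ) (tauC G ρ) t := by
          apply I_bound hs
          have h1 := mean_eq hs
          have h2 : 0 < mt G ρ / sl G ρ := div_pos (hpos ρ hρ) hs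
          linarith
        have h3 := bump_bound hG hρ (measurable_Lfun (sl G ρ) (tauC G ρ))
          (fun t => (Lfun_pos _ _ t).le) (Lfun_le_one _ _)
          (fun t ht => Lfun_le_in hG hρ hs ht)
        linarith
      · -- flat chord
        have hlog := log_eq_zero_of_sl_eq_zero hG hint hρ hs.symm
        have hG1 : G (T1 ρ) = 1 := by
          have := Real.exp_log (hG.pos (T1 ρ))
          rw [hlog, Real.exp_zero] at this
          exact this.symm
        have hG2 : G (T2 ρ) = 1 := by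
          have h2 : Real.log (G (T1 ρ)) - Real.log (G (T2 ρ)) = 0 := by
            unfold sl at hs
            rcases div_eq_zero_iff.1 hs.symm with h1 | h1
            · exact h1
            · linarith [T1_lt_T2 hρ]
          rw [hlog] at h2
          have h3 : Real.log (G (T2 ρ)) = 0 := by linarith
          have := Real.exp_log (hG.pos (T2 ρ))
          rw [h3, Real.exp_zero] at this
          exact this.symm
        have h3 := bump_bound hG hρ (L := fun _ => 1) measurable_const
          (fun _ => zero_le_one) (fun _ => le_rfl)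
          (fun t ht => by
            have := hG.anti ht.2
            rw [hG2] at this
            exact this)
        simp only [mul_one, integral_w] at h3
        linarith
    have hlim : Tendsto (fun ρ => mu0 - ((1 - (1 + T1 ρ) * Real.exp (-T1 ρ)) +
        (1 + T2 ρ) * Real.exp (-T2 ρ))) atTop (𝓝 (mu0 - 0)) :=
      tendsto_const_nhds.sub tendsto_eps
    rw [sub_zero] at hlim
    refine le_of_tendsto hlim ?_
    filter_upwards [eventually_gt_atTop 1] with ρ hρ
    exact hb ρ hρ
  · -- the chord always has negative mean: let ρ → 1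
    push Not at hzero hpos
    obtain ⟨ρ1, hρ1, hneg1⟩ := hpos
    have hneg1' : mt G ρ1 < 0 := lt_of_le_of_ne hneg1 (hzero ρ1 hρ1)
    have hneg : ∀ ρ, 1 < ρ → mt G ρ < 0 := by
      intro ρ hρ
      by_contra hcon
      push Not at hcon
      have hsub : uIcc ρ1 ρ ⊆ Ioi 1 := by
        intro x hx
        rcases mem_uIcc.1 hx with h | h
        · exact lt_of_lt_of_le hρ1 h.1
        · exact lt_of_lt_of_le hρ h.1
      have hiv := intermediate_value_uIcc (hmtc.mono hsub)
      have h0mem : (0:ℝ) ∈ uIcc (mt G ρ1) (mt G ρ) := by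
        rw [mem_uIcc]
        left
        exact ⟨hneg1, hcon⟩
      obtain ⟨x, hx, hxz⟩ := hiv h0mem
      exact hzero x (hsub hx) hxz
    have hb : ∀ ρ, 1 < ρ → mu0 - Real.log ρ ≤ ∫ t, w t * G t := by
      intro ρ hρ
      have hs : 0 < sl G ρ := by
        rcases (sl_nonneg hG hρ).lt_or_eq with h | h
        · exact h
        · have := mt_eq_one_of_sl_eq_zero hG hint hρ h.symm
          have h2 := hneg ρ hρ
          rw [this] at h2
          norm_num at h2
      set s := sl G ρ with hs_def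
      set τ := tauC G ρ with hτ_def
      set m := 1 / s + τ - 4 / 3 with hm_def
      have hmneg : m < 0 := by
        rw [hm_def, mean_eq hs]
        exact div_neg_of_neg_of_pos (hneg ρ hρ) hs
      have hκ : 0 < T1 ρ * Real.exp (-T1 ρ) := mul_pos (T1_pos hρ) (Real.exp_pos _)
      have hmain := main_ineq hG hint h0 hs (hpt_chord hG hρ hs)
      -- bound on `-m`
      have hDbound : -m ≤ Real.log ρ := by
        have hL := integrable_Lfun_sub_ind hs τ (4 / 3)
        have hD : Integrable (fun t => G t - Lfun s τ t) := by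
          refine (hint.sub hL).congr (Eventually.of_forall (fun t => ?_))
          simp
        have hDint : ∫ t, (G t - Lfun s τ t) = -m := by
          have e : (fun t => G t - Lfun s τ t) =
              fun t => (G t - ind (4 / 3) t) - (Lfun s τ t - ind (4 / 3) t) := by
            funext t; ring
          rw [e, integral_sub hint hL, h0, integral_Lfun_sub_ind hs]
          rw [hm_def]; ring
        rw [← hDint]
        have hI : Integrable ((Icc (T1 ρ) (T2 ρ)).indicator (fun _ => (1:ℝ))) := by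
          rw [integrable_indicator_iff measurableSet_Icc]
          simp
        have hle : ∀ t, G t - Lfun s τ t ≤ (Icc (T1 ρ) (T2 ρ)).indicator (fun _ => (1:ℝ)) t := by
          intro t
          by_cases ht : t ∈ Icc (T1 ρ) (T2 ρ)
          · rw [indicator_of_mem ht]
            linarith [hG.le_one t, Lfun_pos s τ t]
          · rw [indicator_of_notMem ht]
            have ht' : t ∉ Ioo (T1 ρ) (T2 ρ) := fun h => ht (Ioo_subset_Icc_self h)
            linarith [le_Lfun_out hG hρ hs ht']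
        have h1 := integral_mono hD hI hle
        rw [integral_indicator measurableSet_Icc] at h1
        have h2 : ∫ t in Icc (T1 ρ) (T2 ρ), (1:ℝ) = Real.log ρ := by
          simp [Real.volume_Icc, (T1_lt_T2 hρ).le, T2_sub_T1 hρ, (Real.log_pos hρ).le]
        rw [h2] at h1
        exact h1
      -- comparison of the two capped exponentials
      have hτ' : τ ≤ 4 / 3 - 1 / s := by
        have : 4 / 3 - 1 / s = τ - m := by rw [hm_def]; ring
        rw [this]; linarith
      have hcomp : ∫ t, w t * Lfun s (4 / 3 - 1 / s) t ≤ (∫ t, w t * Lfun s τ t) + (-m) := by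
        have hA := integrable_Lfun_sub_ind hs (4 / 3 - 1 / s) (4 / 3)
        have hB := integrable_Lfun_sub_ind hs τ (4 / 3)
        have hdiff : Integrable (fun t => Lfun s (4 / 3 - 1 / s) t - Lfun s τ t) := by
          refine (hA.sub hB).congr (Eventually.of_forall (fun t => ?_))
          simp
        have hdint : ∫ t, (Lfun s (4 / 3 - 1 / s) t - Lfun s τ t) = -m := by
          have e : (fun t => Lfun s (4 / 3 - 1 / s) t - Lfun s τ t) =
              fun t => (Lfun s (4 / 3 - 1 / s) t - ind (4 / 3) t) -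
                (Lfun s τ t - ind (4 / 3) t) := by
            funext t; ring
          rw [e, integral_sub hA hB, integral_Lfun_sub_ind hs, integral_Lfun_sub_ind hs]
          rw [hm_def]; ring
        have iA := integrable_w_mul (measurable_Lfun s (4 / 3 - 1 / s)) (abs_Lfun_le _ _)
        have iB := integrable_w_mul (measurable_Lfun s τ) (abs_Lfun_le _ _)
        have hpt : ∀ t, w t * Lfun s (4 / 3 - 1 / s) t ≤
            w t * Lfun s τ t + (Lfun s (4 / 3 - 1 / s) t - Lfun s τ t) := by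
          intro t
          have h1 := Lfun_mono hs.le hτ' t
          have h2 := w_le_one t
          have h3 := w_nonneg t
          nlinarith
        have h4 := integral_mono iA (iB.add hdiff) hpt
        rw [integral_add' iB hdiff, hdint] at h4
        exact h4
      have hI := I_bound_base hs
      nlinarith [hmain, hκ, hmneg]
    have hlim : Tendsto (fun ρ => mu0 - Real.log ρ) (𝓝[>] 1) (𝓝 (mu0 - 0)) := by
      apply Tendsto.sub tendsto_const_nhds
      have := (Real.continuousAt_log (x := 1) (by norm_num)).tendsto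
      rw [Real.log_one] at this
      exact this.mono_left nhdsWithin_le_nhds
    rw [sub_zero] at hlim
    refine le_of_tendsto hlim ?_
    filter_upwards [self_mem_nhdsWithin] with ρ hρ
    exact hb ρ hρ

end final

end Crest.Agent.Lib.TruncExp
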