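import Mathlib

set_option autoImplicit false

open MeasureTheory Set Real Filter Topology

namespace Crest.Agent.Lib.TruncExp

/-- The class of survival functions we work with. -/
structure IsLC (F : ℝ → ℝ) : Prop where
  cont : Continuous F
  pos : ∀ t, 0 < F t
  le_one : ∀ t, F t ≤ 1
  anti : Antitone F
  conc : ConcaveOn ℝ univ (fun t => Real.log (F t))

/-- The averaging operator along a one-sided exponential. -/
noncomputable def tOp (b : ℝ) (F : ℝ → ℝ) (t : ℝ) : ℝ :=
  ∫ x in Ioi (0:ℝ), F (t + b * x) * Real.exp (-x)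

lemma integrableOn_tOp {F : ℝ → ℝ} {C : ℝ} (hc : Measurable F) (hb : ∀ t, |F t| ≤ C) (b t : ℝ) :
    IntegrableOn (fun x => F (t + b * x) * Real.exp (-x)) (Ioi 0) := by
  have h := integrableOn_exp_neg_Ioi 0
  refine Integrable.bdd_mul (c := C) h ?_ ?_
  · exact (hc.comp (by fun_prop)).aestronglyMeasurable
  · exact Eventually.of_forall (fun x => by simpa [Real.norm_eq_abs] using hb _)

lemma tOp_zero (F : ℝ → ℝ) : tOp 0 F = F := by
  funext t
  unfold tOp
  simp only [zero_mul, add_zero]
  rw [integral_const_mul, integral_exp_neg_Ioi_zero, mul_one]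

lemma concave_pair {φ : ℝ → ℝ} (h : ConcaveOn ℝ univ φ) {p q r : ℝ} (hpq : p ≤ q) (hr : 0 ≤ r) :
    φ (q + r) + φ p ≤ φ (p + r) + φ q := by
  by_cases hd : q + r - p = 0
  · have hq : q = p := by linarith
    have hr0 : r = 0 := by linarith
    subst hq; subst hr0; simp
  have hdpos : 0 < q + r - p := lt_of_le_of_ne (by linarith) (Ne.symm hd)
  set d := q + r - p with hd_def
  have ha1 : 0 ≤ (q - p) / d := div_nonneg (by linarith) hdpos.le
  have ha2 : 0 ≤ r / d := div_nonneg hr hdpos.le
  have h1 := h.2 (mem_univ p) (mem_univ (q + r)) ha1 ha2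
    (by field_simp; rw [hd_def]; ring)
  have h2 := h.2 (mem_univ p) (mem_univ (q + r)) ha2 ha1
    (by field_simp; rw [hd_def]; ring)
  have e1 : ((q - p) / d) • p + (r / d) • (q + r) = p + r := by
    simp only [smul_eq_mul]; field_simp; rw [hd_def]; ring
  have e2 : (r / d) • p + ((q - p) / d) • (q + r) = q := by
    simp only [smul_eq_mul]; field_simp; rw [hd_def]; ring
  rw [e1] at h1
  rw [e2] at h2
  simp only [smul_eq_mul] at h1 h2
  have e3 : (q - p) / d + r / d = 1 := by field_simp; rw [hd_def]; ring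
  have e4 : ((q - p) / d + r / d) * φ p = φ p := by rw [e3, one_mul]
  have e5 : ((q - p) / d + r / d) * φ (q + r) = φ (q + r) := by rw [e3, one_mul]
  linarith

section deriv

variable {F : ℝ → ℝ} {C : ℝ}

lemma tOp_eq_of_pos {b : ℝ} (hbpos : 0 < b) (t : ℝ) :
    tOp b F t = b⁻¹ * Real.exp (t / b) *
      ∫ v in Ioi t, F v * Real.exp (-v / b) := by
  have h1 : ∫ v in Ioi t, F v * Real.exp (-v / b) =
      ∫ u in Ioi (0:ℝ), F (t + u) * Real.exp (-(t + u) / b) := by
    rw [← integral_indicator measurableSet_Ioi, ← integral_indicator measurableSet_Ioi]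
    rw [← integral_add_left_eq_self _ t]
    congr 1
    ext u
    simp only [indicator, mem_Ioi]
    by_cases hu : 0 < u
    · simp [hu]
    · have : ¬ t < t + u := by linarith
      simp [hu, this]
  have h2 := integral_comp_mul_left_Ioi (fun u => F (t + u) * Real.exp (-(t + u) / b)) 0 hbpos
  simp only [mul_zero, smul_eq_mul] at h2
  rw [h1]
  have h3 : ∀ x : ℝ, F (t + b * x) * Real.exp (-(t + b * x) / b) =
      Real.exp (-t / b) * (F (t + b * x) * Real.exp (-x)) := by
    intro x
    have : -(t + b * x) / b = -t / b + -x := by field_simp; ring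
    rw [this, Real.exp_add]; ring
  have h4 : ∫ x in Ioi (0:ℝ), F (t + b * x) * Real.exp (-(t + b * x) / b) =
      Real.exp (-t / b) * tOp b F t := by
    simp_rw [h3]
    rw [integral_const_mul]; rfl
  have h5 : ∫ u in Ioi (0:ℝ), F (t + u) * Real.exp (-(t + u) / b) =
      b * (Real.exp (-t / b) * tOp b F t) := by
    rw [← h4, h2]; field_simp
  rw [h5]
  have h6 : Real.exp (t / b) * Real.exp (-t / b) = 1 := by
    rw [← Real.exp_add]; simp [neg_div]
  calc tOp b F t = (Real.exp (t / b) * Real.exp (-t / b)) * tOp b F t := by rw [h6, one_mul]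
    _ = _ := by field_simp

lemma hasDerivAt_tOp_of_pos (hc : Continuous F) (hb : ∀ t, |F t| ≤ C) {b : ℝ} (hbpos : 0 < b)
    (t : ℝ) : HasDerivAt (tOp b F) ((tOp b F t - F t) / b) t := by
  set Ψ : ℝ → ℝ := fun v => F v * Real.exp (-v / b) with hΨ
  have hΨc : Continuous Ψ := by
    apply hc.mul; fun_prop
  have hΨint : ∀ a : ℝ, IntegrableOn Ψ (Ioi a) := by
    intro a
    have h := exp_neg_integrableOn_Ioi a (b := b⁻¹) (inv_pos.mpr hbpos)
    have : (fun v => F v * Real.exp (-b⁻¹ * v)) = Ψ := by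
      funext v
      simp only [hΨ]
      congr 2
      field_simp
    rw [← this]
    refine Integrable.bdd_mul (c := C) h hc.aestronglyMeasurable ?_
    exact Eventually.of_forall (fun x => by simpa [Real.norm_eq_abs] using hb _)
  have hΦ : ∀ u : ℝ, ∫ v in Ioi u, Ψ v = (∫ v in Ioi (0:ℝ), Ψ v) - ∫ v in (0:ℝ)..u, Ψ v := by
    intro u
    have := intervalIntegral.integral_Ioi_sub_Ioi' (hΨint 0) (hΨint u)
    linarith
  have hΦd : HasDerivAt (fun u => ∫ v in Ioi u, Ψ v) (-(Ψ t)) t := by
    have hfunΦ : (fun u => ∫ v in Ioi u, Ψ v) =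
        fun u => (∫ v in Ioi (0:ℝ), Ψ v) - ∫ v in (0:ℝ)..u, Ψ v := funext hΦ
    rw [hfunΦ]
    have := (hΨc.integral_hasStrictDerivAt 0 t).hasDerivAt
    simpa using this.const_sub (∫ v in Ioi (0:ℝ), Ψ v)
  have hE : HasDerivAt (fun u : ℝ => b⁻¹ * Real.exp (u / b)) (b⁻¹ * (Real.exp (t / b) * (1 / b))) t := by
    have : HasDerivAt (fun u : ℝ => u / b) (1 / b) t := by
      simpa using (hasDerivAt_id t).div_const b
    exact this.exp.const_mul b⁻¹
  have hfun : tOp b F = fun u => b⁻¹ * Real.exp (u / b) * ∫ v in Ioi u, Ψ v := by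
    funext u
    exact tOp_eq_of_pos hbpos u
  have h : HasDerivAt (fun u => b⁻¹ * Real.exp (u / b) * ∫ v in Ioi u, Ψ v) _ t := hE.mul hΦd
  rw [← hfun] at h
  convert h using 1
  rw [tOp_eq_of_pos hbpos t]
  have h6 : Real.exp (t / b) * Real.exp (-t / b) = 1 := by
    rw [← Real.exp_add]; simp [neg_div]
  simp only [hΨ]
  field_simp
  have e7 : F t = (Real.exp (t / b) * Real.exp (-t / b)) * F t := by rw [h6, one_mul]
  nth_rewrite 1 [e7]
  ring

lemma tOp_neg_reflect (b : ℝ) (F : ℝ → ℝ) (t : ℝ) :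
    tOp b F t = tOp (-b) (fun u => F (-u)) (-t) := by
  unfold tOp
  congr 1
  ext x
  congr 2
  ring

lemma hasDerivAt_tOp (hc : Continuous F) (hb : ∀ t, |F t| ≤ C) {b : ℝ} (hb0 : b ≠ 0)
    (t : ℝ) : HasDerivAt (tOp b F) ((tOp b F t - F t) / b) t := by
  rcases lt_or_gt_of_ne hb0 with hneg | hpos
  · have hb' : 0 < -b := by linarith
    have hcr : Continuous (fun u => F (-u)) := hc.comp continuous_neg
    have hbr : ∀ u, |F (-u)| ≤ C := fun u => hb _
    have h := hasDerivAt_tOp_of_pos hcr hbr hb' (-t)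
    have hneg' : HasDerivAt (fun u : ℝ => -u) (-1) t := (hasDerivAt_id t).neg
    have hfun : tOp b F = (tOp (-b) (fun u => F (-u))) ∘ (fun u : ℝ => -u) := by
      funext u
      exact tOp_neg_reflect b F u
    have h2 : HasDerivAt (tOp b F)
        ((tOp (-b) (fun u => F (-u)) (-t) - F (- -t)) / (-b) * (-1)) t := by
      rw [hfun]
      exact HasDerivAt.comp t h hneg'
    convert h2 using 1
    rw [tOp_neg_reflect b F t, neg_neg]
    field_simp
  · exact hasDerivAt_tOp_of_pos hc hb hpos t

end deriv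

lemma IsLC.abs_le {F : ℝ → ℝ} (hF : IsLC F) (t : ℝ) : |F t| ≤ 1 := by
  rw [abs_of_pos (hF.pos t)]; exact hF.le_one t

lemma tOp_pos {F : ℝ → ℝ} (hF : IsLC F) (b t : ℝ) : 0 < tOp b F t := by
  unfold tOp
  have hi := integrableOn_tOp hF.cont.measurable hF.abs_le b t
  rw [setIntegral_pos_iff_support_of_nonneg_ae ?_ hi]
  · have hsup : Function.support (fun x => F (t + b * x) * Real.exp (-x)) ∩ Ioi 0 = Ioi 0 := by
      ext x
      simp only [mem_inter_iff, Function.mem_support, mem_Ioi]
      constructor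
      · exact fun h => h.2
      · intro h
        exact ⟨(mul_pos (hF.pos _) (Real.exp_pos _)).ne', h⟩
    rw [hsup]
    simp
  · exact Eventually.of_forall (fun x => (mul_pos (hF.pos _) (Real.exp_pos _)).le)

lemma tOp_le_one {F : ℝ → ℝ} (hF : IsLC F) (b t : ℝ) : tOp b F t ≤ 1 := by
  unfold tOp
  have hi := integrableOn_tOp hF.cont.measurable hF.abs_le b t
  have h1 := integrableOn_exp_neg_Ioi 0
  calc ∫ x in Ioi (0:ℝ), F (t + b * x) * Real.exp (-x)
      ≤ ∫ x in Ioi (0:ℝ), Real.exp (-x) := by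
        apply setIntegral_mono hi h1
        intro x
        have := hF.le_one (t + b * x)
        have he := Real.exp_pos (-x)
        nlinarith
    _ = 1 := integral_exp_neg_Ioi_zero

lemma tOp_anti {F : ℝ → ℝ} (hF : IsLC F) (b : ℝ) : Antitone (tOp b F) := by
  intro t t' htt
  unfold tOp
  apply setIntegral_mono (integrableOn_tOp hF.cont.measurable hF.abs_le b t')
    (integrableOn_tOp hF.cont.measurable hF.abs_le b t)
  intro x
  have h := hF.anti (show t + b * x ≤ t' + b * x by linarith)
  have he := Real.exp_pos (-x)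
  exact mul_le_mul_of_nonneg_right h he.le

lemma tOp_cont {F : ℝ → ℝ} (hF : IsLC F) (b : ℝ) : Continuous (tOp b F) := by
  unfold tOp
  have hcont : ∀ x : ℝ, Continuous (fun t : ℝ => F (t + b * x) * Real.exp (-x)) := by
    intro x
    exact (hF.cont.comp (by fun_prop)).mul continuous_const
  refine continuous_of_dominated (bound := fun x => Real.exp (-x)) ?_ ?_ ?_ ?_
  · intro t
    exact ((hF.cont.comp (by fun_prop)).mul (by fun_prop)).aestronglyMeasurable
  · intro t
    refine Eventually.of_forall (fun x => ?_)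
    rw [Real.norm_eq_abs, abs_mul, abs_of_pos (Real.exp_pos _)]
    have := hF.abs_le (t + b * x)
    have he := Real.exp_pos (-x)
    nlinarith
  · exact integrableOn_exp_neg_Ioi 0
  · exact Eventually.of_forall hcont

/-- The key comparison behind monotonicity of the hazard rate. -/
lemma tOp_cross_pos {F : ℝ → ℝ} (hF : IsLC F) {b : ℝ} (hb : 0 < b) {t t' : ℝ} (htt : t ≤ t') :
    tOp b F t' * F t ≤ tOp b F t * F t' := by
  unfold tOp
  rw [← integral_mul_const, ← integral_mul_const]
  apply setIntegral_mono_on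
  · exact (integrableOn_tOp hF.cont.measurable hF.abs_le b t').mul_const _
  · exact (integrableOn_tOp hF.cont.measurable hF.abs_le b t).mul_const _
  · exact measurableSet_Ioi
  · intro x hx
    have hx' : (0:ℝ) < x := hx
    have hr : 0 ≤ b * x := by positivity
    have h := concave_pair hF.conc htt hr
    -- exponentiate
    have h1 : Real.log (F (t' + b * x) * F t) ≤ Real.log (F (t + b * x) * F t') := by
      rw [Real.log_mul (hF.pos _).ne' (hF.pos _).ne', Real.log_mul (hF.pos _).ne' (hF.pos _).ne']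
      exact h
    have h2 : F (t' + b * x) * F t ≤ F (t + b * x) * F t' :=
      (Real.log_le_log_iff (mul_pos (hF.pos _) (hF.pos _)) (mul_pos (hF.pos _) (hF.pos _))).1 h1
    have he := Real.exp_pos (-x)
    nlinarith

lemma tOp_cross_neg {F : ℝ → ℝ} (hF : IsLC F) {b : ℝ} (hb : b < 0) {t t' : ℝ} (htt : t ≤ t') :
    tOp b F t * F t' ≤ tOp b F t' * F t := by
  unfold tOp
  rw [← integral_mul_const, ← integral_mul_const]
  apply setIntegral_mono_on
  · exact (integrableOn_tOp hF.cont.measurable hF.abs_le b t).mul_const _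
  · exact (integrableOn_tOp hF.cont.measurable hF.abs_le b t').mul_const _
  · exact measurableSet_Ioi
  · intro x hx
    have hx' : (0:ℝ) < x := hx
    have hr : 0 ≤ -(b * x) := by nlinarith
    -- apply the pair lemma at p = t + b x, q = t' + b x, r = -b x
    have hpq : t + b * x ≤ t' + b * x := by linarith
    have h := concave_pair hF.conc hpq hr
    have e1 : t' + b * x + -(b * x) = t' := by ring
    have e2 : t + b * x + -(b * x) = t := by ring
    rw [e1, e2] at h
    have h1 : Real.log (F (t + b * x) * F t') ≤ Real.log (F (t' + b * x) * F t) := by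
      rw [Real.log_mul (hF.pos _).ne' (hF.pos _).ne', Real.log_mul (hF.pos _).ne' (hF.pos _).ne']
      linarith
    have h2 : F (t + b * x) * F t' ≤ F (t' + b * x) * F t :=
      (Real.log_le_log_iff (mul_pos (hF.pos _) (hF.pos _)) (mul_pos (hF.pos _) (hF.pos _))).1 h1
    have he := Real.exp_pos (-x)
    nlinarith

theorem IsLC.tOp {F : ℝ → ℝ} (hF : IsLC F) (b : ℝ) : IsLC (tOp b F) := by
  by_cases hb0 : b = 0
  · subst hb0; rw [tOp_zero]; exact hF
  refine ⟨tOp_cont hF b, tOp_pos hF b, tOp_le_one hF b, tOp_anti hF b, ?_⟩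
  have hT := tOp_pos hF b
  have hd : ∀ t, HasDerivAt (fun t => Real.log (Crest.Agent.Lib.TruncExp.tOp b F t))
      ((Crest.Agent.Lib.TruncExp.tOp b F t - F t) / b / Crest.Agent.Lib.TruncExp.tOp b F t) t := by
    intro t
    exact (hasDerivAt_tOp hF.cont hF.abs_le hb0 t).log (hT t).ne'
  apply AntitoneOn.concaveOn_of_deriv convex_univ
  · exact (continuous_iff_continuousAt.2 (fun t => (hd t).continuousAt)).continuousOn
  · intro t _
    exact (hd t).differentiableAt.differentiableWithinAt
  · intro t _ t' _ htt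
    rw [(hd t).deriv, (hd t').deriv]
    have e : ∀ u, (Crest.Agent.Lib.TruncExp.tOp b F u - F u) / b /
        Crest.Agent.Lib.TruncExp.tOp b F u =
        (1 - F u / Crest.Agent.Lib.TruncExp.tOp b F u) / b := by
      intro u
      have := (hT u).ne'
      field_simp
    rw [e t, e t']
    rcases lt_or_gt_of_ne hb0 with hneg | hpos
    · -- b < 0
      apply div_le_div_of_nonpos_of_le hneg.le
      have h1 := tOp_cross_neg hF hneg htt
      have h2 : F t' / Crest.Agent.Lib.TruncExp.tOp b F t' ≤ F t / Crest.Agent.Lib.TruncExp.tOp b F t := by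
        rw [div_le_div_iff₀ (hT t') (hT t)]
        linarith
      linarith
    · -- b > 0
      apply div_le_div_of_nonneg_right _ hpos.le
      have h1 := tOp_cross_pos hF hpos htt
      have h2 : F t / Crest.Agent.Lib.TruncExp.tOp b F t ≤ F t' / Crest.Agent.Lib.TruncExp.tOp b F t' := by
        rw [div_le_div_iff₀ (hT t) (hT t')]
        linarith
      linarith

end Crest.Agent.Lib.TruncExp
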