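import Crest.Agent.Lib.TruncExp.Chord

set_option autoImplicit false

open MeasureTheory Set Real Filter Topology

namespace Crest.Agent.Lib.TruncExp

/-- The exponential density. -/
noncomputable def hh (y : ℝ) : ℝ := if 0 < y then Real.exp (-y) else 0

lemma hh_eq_indicator : hh = (Ioi 0).indicator (fun y => Real.exp (-y)) := by
  funext y
  simp [hh, indicator]

lemma measurable_hh : Measurable hh := by
  unfold hh
  exact Measurable.ite measurableSet_Ioi (by fun_prop) measurable_const

lemma hh_nonneg (y : ℝ) : 0 ≤ hh y := by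
  unfold hh; split_ifs
  · positivity
  · exact le_rfl

lemma integrable_hh : Integrable hh := by
  rw [hh_eq_indicator, integrable_indicator_iff measurableSet_Ioi]
  exact integrableOn_exp_neg_Ioi 0

lemma integral_hh : ∫ y, hh y = 1 := by
  rw [hh_eq_indicator, integral_indicator measurableSet_Ioi]
  exact integral_exp_neg_Ioi_zero

lemma integral_hh_mul (Z : ℝ → ℝ) : ∫ y, hh y * Z y = ∫ y in Ioi (0:ℝ), Z y * Real.exp (-y) := by
  have : (fun y => hh y * Z y) = (Ioi 0).indicator (fun y => Z y * Real.exp (-y)) := by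
    funext y
    simp only [hh, indicator, mem_Ioi]
    split_ifs <;> ring
  rw [this, integral_indicator measurableSet_Ioi]

lemma integrable_mul_hh : Integrable (fun y => y * hh y) := by
  have : (fun y => y * hh y) = (Ioi 0).indicator (fun y => y * Real.exp (-y)) := by
    funext y
    simp only [hh, indicator, mem_Ioi]
    split_ifs <;> ring
  rw [this, integrable_indicator_iff measurableSet_Ioi]
  exact integrableOn_w_form 0 le_rfl

lemma integral_mul_hh : ∫ y, y * hh y = 1 := by
  have : (fun y => y * hh y) = (Ioi 0).indicator (fun y => y * Real.exp (-y)) := by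
    funext y
    simp only [hh, indicator, mem_Ioi]
    split_ifs <;> ring
  rw [this, integral_indicator measurableSet_Ioi, integral_w_form le_rfl]
  simp

/-- The product exponential density. -/
noncomputable def Dn {N : ℕ} (x : Fin N → ℝ) : ℝ := ∏ i, hh (x i)

lemma Dn_eq_indicator {N : ℕ} (x : Fin N → ℝ) :
    Dn x = (Set.pi univ (fun _ : Fin N => Ioi (0:ℝ))).indicator
      (fun x => Real.exp (-∑ i, x i)) x := by
  unfold Dn
  by_cases h : x ∈ Set.pi univ (fun _ : Fin N => Ioi (0:ℝ))
  · rw [indicator_of_mem h, ← Finset.sum_neg_distrib, Real.exp_sum]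
    apply Finset.prod_congr rfl
    intro i _
    have : 0 < x i := h i (mem_univ i)
    simp [hh, this]
  · rw [indicator_of_notMem h]
    simp only [Set.mem_pi, mem_univ, forall_true_left, not_forall] at h
    obtain ⟨i, hi⟩ := h
    apply Finset.prod_eq_zero (Finset.mem_univ i)
    have : ¬ 0 < x i := hi
    simp [hh, this]

lemma Dn_nonneg {N : ℕ} (x : Fin N → ℝ) : 0 ≤ Dn x :=
  Finset.prod_nonneg (fun i _ => hh_nonneg _)

lemma measurable_Dn {N : ℕ} : Measurable (Dn : (Fin N → ℝ) → ℝ) := by
  unfold Dn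
  exact Finset.measurable_prod _ (fun i _ => measurable_hh.comp (measurable_pi_apply i))

lemma integrable_Dn {N : ℕ} : Integrable (Dn : (Fin N → ℝ) → ℝ) := by
  have := Integrable.fintype_prod (f := fun _ : Fin N => hh) (μ := fun _ => volume)
    (fun _ => integrable_hh)
  exact this

lemma integral_Dn {N : ℕ} : ∫ x : Fin N → ℝ, Dn x = 1 := by
  have := integral_fintype_prod_eq_prod (𝕜 := ℝ) (f := fun (_ : Fin N) => hh) (μ := fun _ => volume)
  simp only [integral_hh, Finset.prod_const_one] at this
  exact this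

/-- The linear form. -/
noncomputable def Yf {N : ℕ} (a : Fin N → ℝ) (x : Fin N → ℝ) : ℝ := ∑ i, a i * x i

lemma measurable_Yf {N : ℕ} (a : Fin N → ℝ) : Measurable (Yf a) := by
  unfold Yf
  exact Finset.measurable_sum _ (fun i _ => (measurable_pi_apply i).const_mul _)

/-- Expectation of a function of the linear form. -/
noncomputable def En {N : ℕ} (a : Fin N → ℝ) (φ : ℝ → ℝ) : ℝ :=
  ∫ x : Fin N → ℝ, φ (Yf a x) * Dn x

lemma integrable_En {N : ℕ} (a : Fin N → ℝ) {φ : ℝ → ℝ} {C : ℝ} (hm : Measurable φ)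
    (hb : ∀ s, |φ s| ≤ C) : Integrable (fun x : Fin N → ℝ => φ (Yf a x) * Dn x) := by
  refine integrable_Dn.bdd_mul (c := C) (hm.comp (measurable_Yf a)).aestronglyMeasurable ?_
  exact Eventually.of_forall (fun x => by simpa [Real.norm_eq_abs] using hb _)

lemma integral_succ {N : ℕ} (F : (Fin (N + 1) → ℝ) → ℝ) (hF : Integrable F) :
    ∫ x, F x = ∫ y : ℝ, ∫ x' : Fin N → ℝ, F (Fin.cons y x') := by
  let e := MeasurableEquiv.piFinSuccAbove (fun _ : Fin (N + 1) => ℝ) 0
  have hmp : MeasurePreserving e volume volume :=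
    volume_preserving_piFinSuccAbove (fun _ : Fin (N + 1) => ℝ) 0
  have hsymm := hmp.symm
  have h1 : ∫ p, F (e.symm p) = ∫ x, F x := hsymm.integral_comp' F
  have hint : Integrable (fun p => F (e.symm p)) (volume : Measure (ℝ × (Fin N → ℝ))) :=
    hsymm.integrable_comp_of_integrable hF
  rw [← h1, Measure.volume_eq_prod, integral_prod _ hint]
  apply integral_congr_ae
  refine Eventually.of_forall (fun y => ?_)
  apply integral_congr_ae
  refine Eventually.of_forall (fun x' => ?_)
  congr 1
  simp [e, MeasurableEquiv.piFinSuccAbove]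
  rfl

lemma Yf_cons {N : ℕ} (a : Fin (N + 1) → ℝ) (y : ℝ) (x' : Fin N → ℝ) :
    Yf a (Fin.cons y x') = a 0 * y + Yf (fun i => a i.succ) x' := by
  unfold Yf
  rw [Fin.sum_univ_succ]
  simp

lemma Dn_cons {N : ℕ} (y : ℝ) (x' : Fin N → ℝ) :
    Dn (Fin.cons y x' : Fin (N + 1) → ℝ) = hh y * Dn x' := by
  unfold Dn
  rw [Fin.prod_univ_succ]
  simp

/-- Peeling off the first coordinate. -/
lemma En_succ {N : ℕ} (a : Fin (N + 1) → ℝ) {φ : ℝ → ℝ} {C : ℝ} (hm : Measurable φ)
    (hb : ∀ s, |φ s| ≤ C) :
    En a φ = ∫ y, hh y * En (fun i => a i.succ) (fun s => φ (a 0 * y + s)) := by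
  unfold En
  rw [integral_succ _ (integrable_En a hm hb)]
  apply integral_congr_ae
  refine Eventually.of_forall (fun y => ?_)
  simp only
  rw [← integral_const_mul]
  apply integral_congr_ae
  refine Eventually.of_forall (fun x' => ?_)
  simp only
  rw [Yf_cons, Dn_cons]
  ring

lemma En_zero (a : Fin 0 → ℝ) (φ : ℝ → ℝ) : En a φ = φ 0 := by
  unfold En
  have h : (volume : Measure (Fin 0 → ℝ)).real univ = 1 := by
    simp [volume_pi, Measure.real, Measure.pi_empty_univ]
  simp [Yf, Dn, h]

/-- Permutation invariance. -/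
lemma En_perm {N : ℕ} (a : Fin N → ℝ) (σ : Equiv.Perm (Fin N)) (φ : ℝ → ℝ) :
    En (a ∘ σ) φ = En a φ := by
  unfold En
  have hmp := volume_measurePreserving_piCongrLeft (fun _ : Fin N => ℝ) σ
  have h := hmp.integral_comp' (fun y : Fin N → ℝ => φ (Yf a y) * Dn y)
  rw [← h]
  apply integral_congr_ae
  refine Eventually.of_forall (fun x => ?_)
  have key : ∀ i, (MeasurableEquiv.piCongrLeft (fun _ : Fin N => ℝ) σ) x (σ i) = x i := by
    intro i
    simp [MeasurableEquiv.piCongrLeft]
  simp only
  congr 1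
  · congr 1
    unfold Yf
    rw [← Equiv.sum_comp σ (fun j => a j * (MeasurableEquiv.piCongrLeft (fun _ : Fin N => ℝ) σ) x j)]
    apply Finset.sum_congr rfl
    intro i _
    rw [key]; rfl
  · unfold Dn
    rw [← Equiv.prod_comp σ (fun j => hh ((MeasurableEquiv.piCongrLeft (fun _ : Fin N => ℝ) σ) x j))]
    apply Finset.prod_congr rfl
    intro i _
    rw [key]

end Crest.Agent.Lib.TruncExp
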